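import Vale.Agent.P254.S.EXUFin
import Vale.Agent.P254.S.EX2.Push450

/-!
P254, block S (captain helper911): existence of the Brenier potential of the standard Gaussian,
unconditional, with explicit bounds.
-/

namespace Vale.Agent.P254.S

open Vale.Agent.P227.M

/-- **S-EX**, explicit constants, unconditional -/
theorem stmtEXU : StmtEXU := EXU.stmtEXU_of_desc EX2.stmtDescG

/-- **S-EX**, unconditional -/
theorem stmtEX : StmtEX := by
  intro n V c C hV
  rcases Nat.eq_zero_or_pos n with rfl | hn
  · exact ⟨_, _, _, _, _, EX3b.bp_zero V⟩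
  · obtain ⟨φ, M, κ, h⟩ := stmtEXU n hn V c C hV
    exact ⟨φ, _, _, M, κ, h⟩

end Vale.Agent.P254.S
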