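import Vale.Agent.P254.S.EX1.Inv
import Vale.Agent.P254.S.EX3a.LK
import Vale.Agent.P254.S.EX3b.Lim

/-!
P254, block S (captain helper911): existence of the Brenier potential of the Gaussian with explicit
bounds `(2 √C)⁻¹ ≤ D²φ ≤ (√c)⁻¹`, depending only on `c ≤ D²V ≤ C`.
-/

set_option linter.all false

open MeasureTheory Filter Set
open scoped ContDiff Topology RealInnerProductSpace

namespace Vale.Agent.P254.S

open Vale.Agent.P227.M
open Vale.Agent.P227.M.MM (phiK)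

/-- **S-EX**, explicit constants -/
def StmtEXU : Prop := ∀ (n : ℕ), 0 < n → ∀ (V : E n → ℝ) (c C : ℝ), Reg V c C →
  ∃ (φ : E n → ℝ) (M κ : ℝ), BP φ V (2 * √C)⁻¹ (√c)⁻¹ M κ

/-- **S-EX1**, explicit constants -/
def StmtInvGU : Prop := ∀ (n : ℕ), 0 < n → ∀ (V : E n → ℝ) (c₀ C₀ : ℝ), Reg V c₀ C₀ →
  ∃ m K₀ : ℝ, 0 < √c₀ ∧ √c₀ ≤ 2 * √C₀ ∧ 0 ≤ m ∧ 1 ≤ K₀ ∧ ∀ k : ℝ, K₀ ≤ k →
    (ClsG k (√c₀) (2 * √C₀) m (fun x : E n => √c₀ / 2 * ‖x‖ ^ 2)) ∧
    (∀ c : E n → ℝ, ClsG k (√c₀) (2 * √C₀) m c → ClsG k (√c₀) (2 * √C₀) m (TG k V c)) ∧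
    (∀ c : E n → ℝ, ClsG k (√c₀) (2 * √C₀) m c →
      Reg (MM.phiK k c) (2 * √C₀)⁻¹ (√c₀)⁻¹ ∧ SelfConc m (MM.phiK k c))

open Lim in
/-- level `k`, explicit constants -/
def StmtLKGU : Prop := ∀ (n : ℕ), 0 < n → ∀ (V : E n → ℝ) (c₀ C₀ : ℝ), Reg V c₀ C₀ →
  ∃ M R : ℝ, 0 < (2 * √C₀)⁻¹ ∧ ∀ ε > 0, ∃ (φ : E n → ℝ) (G : E n → E n) (H : E n → E n →L[ℝ] E n)
    (w : E n), MC.C21c (2 * √C₀)⁻¹ (√c₀)⁻¹ M φ G H ∧ ‖w‖ ≤ R ∧
    ∀ F : E n → ℝ, LipschitzWith 1 F → (∀ x, |F x| ≤ 1) →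
      |Ex Q (fun z => F (G z + w)) - Ex V F| ≤ ε

namespace EXU

section
open EX1
variable {n : ℕ}

/-- **S-EX1**, explicit constants -/
theorem stmtInvGU_of (hSC : StmtSC) (hLL : LK.RegLL) : StmtInvGU := by
  intro n hn V c₀ C₀ hV
  obtain ⟨MV, hMV, hVs⟩ := LK.Reg.exists_selfConc hV
  have hc0 : 0 < c₀ := hV.c_pos
  have hcC : c₀ ≤ C₀ := MM.nice_le hn hV
  have hC0 : 0 < C₀ := hc0.trans_le hcC
  have ha : 0 < √c₀ := Real.sqrt_pos.2 hc0
  have hb : 0 < 2 * √C₀ := by have := Real.sqrt_pos.2 hC0; positivity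
  have hab : √c₀ ≤ 2 * √C₀ := by
    have h1 := Real.sqrt_le_sqrt hcC
    have h2 := Real.sqrt_nonneg C₀
    linarith
  set a := √c₀ with hadef
  set b := 2 * √C₀ with hbdef
  set m := 2 / 3 * MV * √(C₀ / (a / 2)) with hmdef
  have hm0 : 0 ≤ m := by positivity
  refine ⟨m, max (max 1 (m ^ 2)) (max a b), ha, hab, hm0,
    (le_max_left _ _).trans (le_max_left _ _), fun k hk => ?_⟩
  have hk1 : 1 ≤ k := ((le_max_left _ _).trans (le_max_left _ _)).trans hk
  have hmk : m ^ 2 ≤ k := ((le_max_right _ _).trans (le_max_left _ _)).trans hk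
  have hak : a ≤ k := ((le_max_left _ _).trans (le_max_right _ _)).trans hk
  have hbk : b ≤ k := ((le_max_right _ _).trans (le_max_right _ _)).trans hk
  have hk0 : 0 < k := by linarith
  refine ⟨⟨(MM.Start102.nice_quad ha hab).toReg, MM.Start102.selfConc_quad ha.le hm0, by simp⟩,
    fun c hc => ?_, fun c hc => ⟨reg_phi hLL hk0 ha hb hc.reg,
      sc_phi hSC hLL hk0 hb hm0 hmk hc.reg hc.sc⟩⟩
  refine TG_mem hSC hLL hV hC0 hMV hVs ha hb ?_ ?_ le_rfl hk0 hmk hak hbk hc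
  · rw [hadef, Real.sq_sqrt hc0.le]
  · rw [hbdef, mul_pow, Real.sq_sqrt hC0.le]
    linarith



end

section
open EX3a
variable {n : ℕ}

theorem stmtLKGU_of (h1 : StmtInvGU) (h3 : StmtDescG) : StmtLKGU := by
  intro n hn V c₀ C₀ hV
  obtain ⟨m, K₀, ha, hab, hm, hK₀, hinv⟩ := h1 n hn V c₀ C₀ hV
  set a := √c₀ with hadef
  set b := 2 * √C₀ with hbdef
  have hb : 0 < b := ha.trans_le hab
  -- radii
  obtain ⟨r, hr⟩ : ∃ r : ℝ, 3 / 4 < Ex (Q (n := n)) (cut r) := by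
    have h := (tendsto_cut (integrable_Q (n := n)) Q_pos).eventually (lt_mem_nhds (by norm_num : (3 / 4 : ℝ) < 1))
    obtain ⟨j, hj⟩ := h.exists
    exact ⟨j, hj⟩
  obtain ⟨R, hR⟩ : ∃ R : ℝ, 3 / 4 < Ex V (cut R) := by
    have h := (tendsto_cut hV.integrable_exp hV.Z_pos).eventually (lt_mem_nhds (by norm_num : (3 / 4 : ℝ) < 1))
    obtain ⟨j, hj⟩ := h.exists
    exact ⟨j, hj⟩
  refine ⟨18 * m * (a⁻¹) ^ ((3 : ℝ) / 2), R + 1 + a⁻¹ * (r + 1), by positivity, fun ε hε => ?_⟩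
  set δ := min ε (1 / 4) / 2 with hδ
  have hδ0 : 0 < δ := by positivity
  have hδ1 : 2 * δ ≤ ε := by
    rw [hδ]
    linarith [min_le_left ε (1 / 4)]
  have hδ2 : 2 * δ ≤ 1 / 4 := by
    rw [hδ]
    linarith [min_le_right ε (1 / 4)]
  obtain ⟨k, hk1, hk3⟩ : ∃ k : ℝ, K₀ ≤ k ∧ (n : ℝ) / (a * δ ^ 2) ≤ k :=
    ⟨max K₀ ((n : ℝ) / (a * δ ^ 2)), le_max_left _ _, le_max_right _ _⟩
  have hk0 : 1 ≤ k := hK₀.trans hk1
  have hkpos : 0 < k := by linarith
  obtain ⟨h0, hT, hphi⟩ := hinv k hk1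
  have hcls : ∀ i, ClsG k a b m (itG k a V i) := itG_mem h0 hT
  obtain ⟨i, hi⟩ := h3 n hn V c₀ C₀ a b m k hV ha hm hk0 hcls (fun i => (hphi _ (hcls i)).1) δ hδ0
  obtain ⟨hN, hS⟩ := hphi _ (hcls i)
  set φ₀ := MM.phiK k (itG k a V i) with hφ₀
  obtain ⟨H, hg1, hg2, hg3, hg4, hg5⟩ := MC.toC21_fields hn φ₀ _ _ m hN hm hS
  have hs : Real.sqrt ((n : ℝ) / (a * k)) ≤ δ := by
    apply Real.sqrt_le_iff.2
    refine ⟨hδ0.le, ?_⟩
    rw [div_le_iff₀ (by positivity)]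
    rw [div_le_iff₀ (by positivity)] at hk3
    nlinarith
  have hi' : ∀ F : E n → ℝ, LipschitzWith 1 F → (∀ x, |F x| ≤ 1) →
      |Ex Q (fun z => F (gradient φ₀ z)) - Ex V F| ≤ 2 * δ := fun F hF hF1 =>
    (hi F hF hF1).trans (by linarith)
  set w := gradient φ₀ 0 with hw
  have hC : MC.C21c b⁻¹ a⁻¹ (18 * m * (a⁻¹) ^ ((3 : ℝ) / 2)) (fun z => φ₀ z - inner ℝ w z)
      (fun z => gradient φ₀ z - w) H := by
    refine ⟨fun y => ?_, fun y => ?_, hg3, hg4, hg5, by simp [hw]⟩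
    · rw [hasGradientAt_iff_hasFDerivAt]
      have h6 := (hg1 y).hasFDerivAt.sub (innerSL ℝ w).hasFDerivAt
      refine (h6.congr_fderiv ?_)
      ext v
      simp [inner_sub_left]
    · exact (hg2 y).sub_const w
  have hcont : Continuous (gradient φ₀) := continuous_iff_continuousAt.2 fun y => (hg2 y).continuousAt
  refine ⟨_, _, H, w, hC, ?_, fun F hF hF1 => ?_⟩
  · refine bound hcont (fun y => ?_) (by positivity) hr hR ((hi' (cut R) (lip_cut R) (abs_cut R)).trans hδ2)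
    have h7 := hC.G_lip (by positivity) (by positivity) 0 y
    rw [sub_sub_sub_cancel_right, zero_sub, norm_neg] at h7
    have h8 : ‖gradient φ₀ 0‖ ≤ ‖gradient φ₀ y‖ + ‖gradient φ₀ 0 - gradient φ₀ y‖ := by
      have := norm_add_le (gradient φ₀ y) (gradient φ₀ 0 - gradient φ₀ y)
      rwa [add_sub_cancel] at this
    linarith
  · simp only [sub_add_cancel]
    exact (hi' F hF hF1).trans hδ1


end

section
open EX3b
variable {n : ℕ}

theorem stmtEXU_of_LKG (h : StmtLKGU) : StmtEXU := by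
  intro n hn V c C hV
  obtain ⟨M, R, ha, hM⟩ := h n hn V c C hV
  set a := (2 * √C)⁻¹ with hadef
  set b := (√c)⁻¹ with hbdef
  have he : ∀ j : ℕ, (0 : ℝ) < 1 / ((j : ℝ) + 1) := fun j => by positivity
  choose φ G H w hC hw hF using fun j : ℕ => hM (1 / ((j : ℝ) + 1)) (he j)
  have he0 : Tendsto (fun j : ℕ => 1 / ((j : ℝ) + 1)) atTop (𝓝 0) :=
    tendsto_one_div_add_atTop_nhds_zero_nat
  have hb : 0 ≤ b := by
    have h1 := (hC 0).lower 0 (ei ⟨0, hn⟩)
    have h2 := (hC 0).upper 0 (ei ⟨0, hn⟩)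
    have h3 : ‖(ei ⟨0, hn⟩ : E n)‖ = 1 := by simp [ei]
    rw [h3] at h1 h2
    linarith
  -- convergence of the linear terms
  obtain ⟨w', -, θ, hθ, hwθ⟩ := (isCompact_closedBall (0 : E n) R).tendsto_subseq
    (x := w) (fun j => by rw [mem_closedBall_zero_iff]; exact hw j)
  obtain ⟨ψ, hψ, φ', G', H', hC', -, hG, hH⟩ := MC.exists_limit (B := 0) ha.le hb
    (fun j => C21c_sub_const (hC (θ j)) (φ (θ j) 0)) (fun j => by simp)
  have hθψ : Tendsto (fun j => θ (ψ j)) atTop atTop := hθ.tendsto_atTop.comp hψ.tendsto_atTop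
  have hw2 : Tendsto (fun j => w (θ (ψ j))) atTop (𝓝 w') := hwθ.comp hψ.tendsto_atTop
  -- the limit map
  set g : E n → E n := fun z => G' z + w' with hg
  have hgd : ∀ z, HasFDerivAt g (H' z) z := fun z => (hC'.hess z).add_const w'
  have hgf : fderiv ℝ g = H' := funext fun z => (hgd z).fderiv
  have hg1 : ContDiff ℝ 1 g := by
    rw [contDiff_one_iff_fderiv]
    refine ⟨fun z => (hgd z).differentiableAt, ?_⟩
    rw [hgf]
    exact hC'.continuous_H
  have hm : ∀ x y, a * ‖x - y‖ ^ 2 ≤ inner ℝ (g x - g y) (x - y) := by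
    intro x y
    have h1 := hC'.mono y (x - y)
    rw [add_sub_cancel] at h1
    have h2 : g x - g y = G' x - G' y := by simp [hg]
    rw [h2]
    exact h1
  -- push forward in the limit
  have hpush : ∀ F : E n → ℝ, (∃ K, LipschitzWith K F) → HasCompactSupport F →
      Ex Q (fun z => F (g z)) = Ex V F := by
    intro F hF1 hFc
    obtain ⟨K, hK⟩ := hF1
    obtain ⟨BF, hBF⟩ := hFc.exists_bound_of_continuous hK.continuous
    have hBF' : ∀ x, |F x| ≤ BF := fun x => by simpa using hBF x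
    have hlim1 := (tendsto_of_lip (g := fun j z => G j z + w j) he0 hF hK hBF').comp hθψ
    have hlim2 : Tendsto (fun j => ∫ z, F (G (θ (ψ j)) z + w (θ (ψ j))) * Real.exp (-Q z)) atTop
        (𝓝 (∫ z, F (g z) * Real.exp (-Q z))) := by
      refine tendsto_integral_of_dominated_convergence (fun z => BF * Real.exp (-Q z)) (fun j => ?_)
        (intQ.const_mul _) (fun j => ?_) ?_
      · exact ((hK.continuous.comp ((hC (θ (ψ j))).continuous_G.add continuous_const)).mul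
          continuous_Q.neg.rexp).aestronglyMeasurable
      · refine Eventually.of_forall fun y => ?_
        rw [norm_mul, Real.norm_eq_abs, Real.norm_eq_abs, abs_of_pos (Real.exp_pos _)]
        exact mul_le_mul_of_nonneg_right (hBF' _) (Real.exp_pos _).le
      · refine Eventually.of_forall fun y => ?_
        refine Tendsto.mul_const _ ?_
        exact (hK.continuous.tendsto _).comp ((hG y).add hw2)
    have hlim3 := hlim2.div_const (∫ z : E n, Real.exp (-Q z))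
    exact tendsto_nhds_unique hlim3 hlim1
  have hZQ := posQ (n := n)
  have hZV := hV.Z_pos
  set ZQ := ∫ z : E n, Real.exp (-Q z) with hZQd
  set ZV := ∫ x, Real.exp (-V x) with hZVd
  have key : ∀ z, Real.exp (-Q z) / ZQ = Real.exp (-V (g z)) / ZV * (H' z).det := by
    intro z
    have h1 := Vale.Agent.P227.M.LIM.eq_mul_det_of_integral ha hg1 hm
      (f := fun y => Real.exp (-Q y) / ZQ) (h := fun x => Real.exp (-V x) / ZV)
      (continuous_Q.neg.rexp.div_const _) (hV.smooth.continuous.neg.rexp.div_const _) ?_ z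
    · rw [hgf] at h1
      exact h1
    · intro F hF1 hFc
      have h2 := hpush F hF1 hFc
      unfold Ex at h2
      rw [← integral_div, ← integral_div] at h2
      simp_rw [mul_div_assoc] at h2
      exact h2
  have hdet : ∀ z, 0 < (H' z).det := fun z =>
    Vale.Agent.P227.M.LIM.det_pos_of_coercive ha (H' z) (fun v => hC'.lower z v)
  refine ⟨fun z => φ' z + ⟪w', z⟫, M, Real.log ZQ - Real.log ZV, bp_of ha hC' w' fun z => ?_⟩
  have h1 := congrArg Real.log (key z)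
  rw [Real.log_div (Real.exp_ne_zero _) hZQ.ne', Real.log_mul (by positivity) (hdet z).ne',
    Real.log_div (Real.exp_ne_zero _) hZV.ne', Real.log_exp, Real.log_exp] at h1
  have h2 : V (g z) = Q z + Real.log (H' z).det + (Real.log ZQ - Real.log ZV) := by linarith
  exact h2


end

/-- existence with explicit constants, from the three inputs -/
theorem stmtEXU_of (hSC : StmtSC) (hLL : LK.RegLL) (h3 : StmtDescG) : StmtEXU :=
  stmtEXU_of_LKG (stmtLKGU_of (stmtInvGU_of hSC hLL) h3)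

end EXU

end Vale.Agent.P254.S
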