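import Vale.Agent.P254.S.EXU
import Vale.Agent.P254.Bdl.B19

/-!
P254, block S (captain helper911): `StmtDescG → StmtEXU`, the other inputs are discharged.
-/

namespace Vale.Agent.P254.S.EXU

open Vale.Agent.P227.M

/-- existence with explicit constants, from the descent statement alone -/
theorem stmtEXU_of_desc (h3 : StmtDescG) : StmtEXU :=
  stmtEXU_of (HL.stmtSC_of_heat SC.stmtHeat) LK.H570.regLL h3

end Vale.Agent.P254.S.EXU
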