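import Vale.Agent.P254.Bdl.B1

/-!
P254, block S (near-sharp slicing by the Brenier map of the standard Gaussian): the frozen interface
(deputy helper937).  `Q z = ‖z‖² / 2`, `Ex Q f` = expectation of `f` under the standard Gaussian,
`Reg`, `hess`, `pd`, `qf`, `Ex`, `logLap`, `SelfConc` as in `Vale.Agent.P227.M` (Bdl/B1).

`StmtEX` (existence) + `StmtPush`, `StmtGauge`, `StmtMatP` (130 + 290 + Poincaré), `StmtHerm`,
`StmtCert` (scalar certificate), `StmtEnt`  ⟹  `StmtS δ`  ⟹  `NiceDDL δ n`.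
-/

open MeasureTheory
open scoped Topology

namespace Vale.Agent.P254.S

open Vale.Agent.P227.M

/-- potential of the standard Gaussian -/
noncomputable def Q {n : ℕ} (z : E n) : ℝ := ‖z‖ ^ 2 / 2

/-- `φ` is a `C^{2,1}` Brenier potential of the standard Gaussian onto `e^{-V} / ∫ e^{-V}`:
`V (∇φ z) = ‖z‖²/2 + log det D²φ z + κ` -/
structure BP {n : ℕ} (φ V : E n → ℝ) (a b M κ : ℝ) : Prop where
  a_pos : 0 < a
  C2 : ContDiff ℝ 2 φ
  lower : ∀ z v, a * ‖v‖ ^ 2 ≤ qf (hess φ z) v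
  upper : ∀ z v, qf (hess φ z) v ≤ b * ‖v‖ ^ 2
  lip : ∀ i j x y, |hess φ x i j - hess φ y i j| ≤ M * ‖x - y‖
  ma : ∀ z, V (gradient φ z) = ‖z‖ ^ 2 / 2 + Real.log (hess φ z).det + κ

/-- **S-EX** existence -/
def StmtEX : Prop := ∀ (n : ℕ) (V : E n → ℝ) (c C : ℝ), Reg V c C →
  ∃ (φ : E n → ℝ) (a b M κ : ℝ), BP φ V a b M κ

/-- **S-PUSH** change of variables: `∇φ` pushes the Gaussian onto `e^{-V}` (any `f`) -/
def StmtPush : Prop := ∀ (n : ℕ) (φ V : E n → ℝ) (a b M κ : ℝ), BP φ V a b M κ →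
  (∀ f : E n → ℝ, Ex V f = Ex Q (fun z => f (gradient φ z))) ∧
  (∀ f : E n → ℝ, Integrable (fun x => f x * Real.exp (-V x)) ↔
    Integrable (fun z => f (gradient φ z) * Real.exp (-Q z))) ∧
  (∫ x, Real.exp (-V x)) = Real.exp (-κ) * ∫ z, Real.exp (-Q (n := n) z)

/-- the linear map of a matrix on `E n` -/
noncomputable def lin {n : ℕ} (A : Matrix (Fin n) (Fin n) ℝ) (y : E n) : E n :=
  WithLp.toLp 2 (A.mulVec y.ofLp)

/-- **S-GAUGE** after a linear change of the target the mean Hessian is the identity -/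
def StmtGauge : Prop := ∀ (n : ℕ) (V : E n → ℝ) (c C : ℝ), Reg V c C →
  ∃ (A : Matrix (Fin n) (Fin n) ℝ) (c' C' : ℝ), A.det ≠ 0 ∧ Reg (fun x => V (lin A x)) c' C' ∧
    ∃ (φ : E n → ℝ) (a b M κ : ℝ), BP φ (fun x => V (lin A x)) a b M κ ∧
      ∀ i j, Ex Q (fun z => hess φ z i j) = if i = j then 1 else 0

/-- spectral decomposition field of a matrix field -/
structure Spec {n : ℕ} (M : E n → Matrix (Fin n) (Fin n) ℝ)
    (U : E n → Matrix (Fin n) (Fin n) ℝ) (m : E n → Fin n → ℝ) : Prop where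
  orth : ∀ z, U z * (U z).transpose = 1
  dec : ∀ z, M z = U z * Matrix.diagonal (m z) * (U z).transpose

/-- `F(M) = U diag (F m) Uᵀ` -/
noncomputable def fc {n : ℕ} (U : E n → Matrix (Fin n) (Fin n) ℝ) (m : E n → Fin n → ℝ)
    (F : ℝ → ℝ) (z : E n) : Matrix (Fin n) (Fin n) ℝ :=
  U z * Matrix.diagonal (fun k => F (m z k)) * (U z).transpose

/-- **S-MATP** the matrix inequality (integrated Monge-Ampère with weight `α + γ m + β m²`,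
pointwise algebra, Gaussian Poincaré), for `F` with `F'(m)² ≤ α / m² + 2 γ / m + 3 β` -/
def StmtMatP : Prop := ∀ (n : ℕ) (φ V : E n → ℝ) (c C a b M κ : ℝ), Reg V c C →
  BP φ V a b M κ → ∀ (U : E n → Matrix (Fin n) (Fin n) ℝ) (m : E n → Fin n → ℝ),
  Spec (hess φ) U m → ∀ α γ β : ℝ, 0 ≤ α → 0 ≤ γ → 0 ≤ β → ∀ F F' : ℝ → ℝ,
  (∀ x, 0 < x → HasDerivAt F (F' x) x) → ContinuousOn F' (Set.Ioi 0) →
  (∀ x, 0 < x → F' x ^ 2 ≤ α / x ^ 2 + 2 * γ / x + 3 * β) →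
    Ex Q (fun z => ∑ k, F (m z k) ^ 2) - ∑ i, ∑ j, (Ex Q (fun z => fc U m F z i j)) ^ 2
      ≤ Ex Q (fun z => ∑ k, (α + γ * m z k + β * m z k ^ 2))

/-- **S-HERM** second order Poincaré inequality of the Gaussian -/
def StmtHerm : Prop := ∀ (n : ℕ) (f : E n → ℝ) (B : ℝ), ContDiff ℝ 1 f →
  (∀ x, ‖fderiv ℝ f x‖ ≤ B) →
    Ex Q (fun z => f z ^ 2) - (Ex Q f) ^ 2
      ≤ 1 / 2 * ∑ i, (Ex Q (fun z => pd i f z)) ^ 2 + 1 / 2 * Ex Q (fun z => ∑ i, (pd i f z) ^ 2)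

/-- Gaussian Poincaré inequality for Lipschitz functions -/
def StmtPoi : Prop := ∀ (n : ℕ) (f : E n → ℝ) (K : NNReal), LipschitzWith K f →
    Ex Q (fun z => f z ^ 2) - (Ex Q f) ^ 2 ≤ Ex Q (fun z => ∑ i, (pd i f z) ^ 2)

/-- **S-SCAL** one-variable certificate (pointwise, dual form): constants `α γ β C₀`, a `C¹` function
`F` on `(0,∞)` with `F'(m)² ≤ α/m² + 2γ/m + 3β` -/
structure Cert (α γ β C₀ : ℝ) (F F' : ℝ → ℝ) : Prop where
  al : 0 ≤ α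
  ga : 0 ≤ γ
  be : 0 ≤ β
  hd : ∀ m, 0 < m → HasDerivAt F (F' m) m
  cont : ContinuousOn F' (Set.Ioi 0)
  nonneg : ∀ m, 0 < m → 0 ≤ F' m
  sq : ∀ m, 0 < m → F' m ^ 2 ≤ α / m ^ 2 + 2 * γ / m + 3 * β
  cert : ∀ t : ℝ, ∃ c > 0, ∃ k : ℝ, ∀ m, 0 < m →
    -2 * Real.log m + (α + γ * m + β * m ^ 2) - (F m - t) ^ 2 + c * (1 + m ^ 2) / 2 - 1
      - Real.log c - k * (m - 1) ≤ C₀

/-- covariance matrix of `e^{-V}` -/
noncomputable def covV {n : ℕ} (V : E n → ℝ) : Matrix (Fin n) (Fin n) ℝ :=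
  fun i j => Ex V (fun x => x i * x j) - Ex V (fun x => x i) * Ex V (fun x => x j)

/-- entropy of `e^{-V}` -/
noncomputable def entV {n : ℕ} (V : E n → ℝ) : ℝ := Ex V V + Real.log (∫ x, Real.exp (-V x))

/-- **S-ENT** entropy and covariance of the image -/
def StmtEnt : Prop := ∀ (n : ℕ) (φ V : E n → ℝ) (a b M κ : ℝ), BP φ V a b M κ →
  entV V = (n : ℝ) / 2 * Real.log (2 * Real.pi * Real.exp 1)
    + Ex Q (fun z => Real.log (hess φ z).det)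

/-- **S-MAIN** the near-sharp slicing inequality for regular potentials -/
def StmtS (δ : ℝ) : Prop := ∀ (n : ℕ) (V : E n → ℝ) (c C : ℝ), Reg V c C →
  (n : ℝ) + 1 / 2 * Real.log (covV V).det ≤ entV V + δ * n

/-! ### level `k` (existence) -/

/-- `ψ_k[φ](x) = (1/k) log ∫ exp (k ⟨x,z⟩ - k φ z - ‖z‖²/2) dz` -/
noncomputable def psiG {n : ℕ} (k : ℝ) (φ : E n → ℝ) (x : E n) : ℝ :=
  (1 / k) * logLap (fun z => k * φ z + Q z) (k • x)

/-- the Sinkhorn map at level `k`: `c ↦ ψ_k[φ_k[c]] + V/k - const`, normalised by `c 0 = 0`;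
`φ_k[c] = MM.phiK k c = (1/k) log ∫ exp (k ⟨x,y⟩ - k c x) dx` -/
noncomputable def TG {n : ℕ} (k : ℝ) (V c : E n → ℝ) (x : E n) : ℝ :=
  psiG k (MM.phiK k c) x + V x / k - (psiG k (MM.phiK k c) 0 + V 0 / k)

/-- the invariant class at level `k` -/
structure ClsG {n : ℕ} (k a b m : ℝ) (c : E n → ℝ) : Prop where
  reg : Reg c a b
  sc : SelfConc m c
  zero : c 0 = 0

/-- iterates, started at the quadratic `a ‖x‖²/2` -/
noncomputable def itG {n : ℕ} (k a : ℝ) (V : E n → ℝ) : ℕ → E n → ℝ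
  | 0 => fun x => a / 2 * ‖x‖ ^ 2
  | i + 1 => TG k V (itG k a V i)

/-- **S-EX1** invariance of the class (a = √c₀, b = 2 √C₀ work for `k` large), and the class is
mapped by `phiK` into `Reg · b⁻¹ a⁻¹`, `SelfConc m` -/
def StmtInvG : Prop := ∀ (n : ℕ), 0 < n → ∀ (V : E n → ℝ) (c₀ C₀ : ℝ), Reg V c₀ C₀ →
  ∃ a b m K₀ : ℝ, 0 < a ∧ a ≤ b ∧ 0 ≤ m ∧ 1 ≤ K₀ ∧ ∀ k : ℝ, K₀ ≤ k →
    (ClsG k a b m (fun x : E n => a / 2 * ‖x‖ ^ 2)) ∧
    (∀ c : E n → ℝ, ClsG k a b m c → ClsG k a b m (TG k V c)) ∧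
    (∀ c : E n → ℝ, ClsG k a b m c → Reg (MM.phiK k c) b⁻¹ a⁻¹ ∧ SelfConc m (MM.phiK k c))

/-- **S-EX2** descent: along the iterates the level-`k` law gets its `x`-marginal right, and `x` is
close to `∇φ_k z` in the mean -/
def StmtDescG : Prop := ∀ (n : ℕ), 0 < n → ∀ (V : E n → ℝ) (c₀ C₀ a b m k : ℝ), Reg V c₀ C₀ →
  0 < a → 0 ≤ m → 1 ≤ k → (∀ i, ClsG k a b m (itG k a V i)) →
  (∀ i, Reg (MM.phiK k (itG k a V i)) b⁻¹ a⁻¹) →
  ∀ ε > 0, ∃ i : ℕ, ∀ F : E n → ℝ, LipschitzWith 1 F → (∀ x, |F x| ≤ 1) →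
    |Ex Q (fun z => F (gradient (MM.phiK k (itG k a V i)) z)) - Ex V F|
      ≤ Real.sqrt (n / (a * k)) + ε

open Lim in
/-- output of level `k`: `φ` with `C21`-data up to a linear term; `w = ∇φ(0)` is bounded -/
def StmtLKG : Prop := ∀ (n : ℕ), 0 < n → ∀ (V : E n → ℝ) (c₀ C₀ : ℝ), Reg V c₀ C₀ →
  ∃ a b M R : ℝ, 0 < a ∧ ∀ ε > 0, ∃ (φ : E n → ℝ) (G : E n → E n) (H : E n → E n →L[ℝ] E n)
    (w : E n), MC.C21c a b M φ G H ∧ ‖w‖ ≤ R ∧
    ∀ F : E n → ℝ, LipschitzWith 1 F → (∀ x, |F x| ≤ 1) →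
      |Ex Q (fun z => F (G z + w)) - Ex V F| ≤ ε

/-- **S-EX3** compactness: the limit pushes the Gaussian onto `e^{-V}`, pointwise Monge-Ampère -/
def StmtLIMG : Prop := StmtLKG → StmtEX

end Vale.Agent.P254.S
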